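import Mathlib.Analysis.Normed.Operator.Extend
import Mathlib.Data.Finsupp.Encodable
import Vale.Agent.P233.Bd3.B1

set_option linter.all false

/-!
# Bounded operators given by their values on a countable family (pointwise linear algebra)
-/

open MeasureTheory Filter Topology
open scoped ENNReal NNReal InnerProductSpace

namespace Vale.Agent.P233.H362

variable {E : Type*} [NormedAddCommGroup E] [InnerProductSpace ℝ E]

/-- the rational combination with coefficients `c` -/
noncomputable def rc (z : ℕ → E) (c : ℕ →₀ ℚ) : E := c.sum fun i q => (q : ℝ) • z i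

/-- the closed span of a sequence -/
def Sp (z : ℕ → E) : Submodule ℝ E := (Submodule.span ℝ (Set.range z)).topologicalClosure

theorem mem_Sp (z : ℕ → E) (n : ℕ) : z n ∈ Sp z :=
  Submodule.le_topologicalClosure _ (Submodule.subset_span ⟨n, rfl⟩)

theorem Sp_isClosed (z : ℕ → E) : IsClosed (Sp z : Set E) := Submodule.isClosed_topologicalClosure _

instance Sp_complete [CompleteSpace E] (z : ℕ → E) : CompleteSpace (Sp z) :=
  (Sp_isClosed z).completeSpace_coe

theorem rc_mem_Sp (z : ℕ → E) (c : ℕ →₀ ℚ) : rc z c ∈ Sp z :=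
  Submodule.sum_mem _ fun i _ => Submodule.smul_mem _ _ (mem_Sp z i)

theorem orth_Sp {z : ℕ → E} {v : E} (h : ∀ n, ⟪z n, v⟫_ℝ = 0) {w : E} (hw : w ∈ Sp z) :
    ⟪w, v⟫_ℝ = 0 := by
  have h1 : ∀ w ∈ Submodule.span ℝ (Set.range z), ⟪w, v⟫_ℝ = 0 := by
    intro w hw
    induction hw using Submodule.span_induction with
    | mem x hx => obtain ⟨n, rfl⟩ := hx; exact h n
    | zero => simp
    | add x y _ _ hx hy => rw [inner_add_left, hx, hy, add_zero]
    | smul a x _ hx => rw [real_inner_smul_left, hx, mul_zero]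
  have h2 : IsClosed {w : E | ⟪w, v⟫_ℝ = 0} :=
    isClosed_eq (continuous_id.inner continuous_const) continuous_const
  exact closure_minimal (fun w hw => h1 w hw) h2 hw

theorem lc_indicator (u : ℕ → E) (c : ℕ → ℚ) (s : Finset ℕ) :
    rc u (Finsupp.indicator s fun i _ => c i) = ∑ i ∈ s, (c i : ℝ) • u i := by
  classical
  unfold rc
  rw [Finsupp.sum_of_support_subset _ (Finsupp.support_indicator_subset s _) _ (fun i _ => by simp)]
  refine Finset.sum_congr rfl fun i hi => ?_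
  rw [Finsupp.indicator_of_mem hi]

theorem real_of_rat (z u : ℕ → E) {K : ℝ} (h : ∀ c : ℕ →₀ ℚ, ‖rc u c‖ ≤ K * ‖rc z c‖)
    (c : ℕ →₀ ℝ) : ‖Finsupp.linearCombination ℝ u c‖ ≤ K * ‖Finsupp.linearCombination ℝ z c‖ := by
  have key : ∀ (s : Finset ℕ) (a : ℕ → ℝ), ‖∑ i ∈ s, a i • u i‖ ≤ K * ‖∑ i ∈ s, a i • z i‖ := by
    intro s
    have hd : DenseRange (Pi.map fun _ : ℕ => ((↑) : ℚ → ℝ)) :=
      DenseRange.piMap fun _ => Rat.denseRange_cast
    have hc : IsClosed {a : ℕ → ℝ | ‖∑ i ∈ s, a i • u i‖ ≤ K * ‖∑ i ∈ s, a i • z i‖} := by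
      refine isClosed_le ?_ ?_ <;> fun_prop
    intro a
    refine hd.induction_on (p := fun a => ‖∑ i ∈ s, a i • u i‖ ≤ K * ‖∑ i ∈ s, a i • z i‖) a hc ?_
    intro b
    have := h (Finsupp.indicator s fun i _ => b i)
    rw [lc_indicator, lc_indicator] at this
    exact this
  rw [Finsupp.linearCombination_apply, Finsupp.linearCombination_apply]
  exact key c.support c

theorem exists_op [CompleteSpace E] (z u : ℕ → E) {K : ℝ} (hK : 0 ≤ K)
    (h : ∀ c : ℕ →₀ ℚ, ‖rc u c‖ ≤ K * ‖rc z c‖) :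
    ∃ T : E →L[ℝ] E, (∀ n, T (z n) = u n) ∧ ‖T‖ ≤ K ∧
      ∀ v, (∀ n, ⟪z n, v⟫_ℝ = 0) → T v = 0 := by
  set S := Sp z with hS
  set lz := Finsupp.linearCombination ℝ z with hlz
  set lu := Finsupp.linearCombination ℝ u with hlu
  have hmem : ∀ c, lz c ∈ S := by
    intro c
    rw [hlz, Finsupp.linearCombination_apply]
    exact Submodule.sum_mem _ fun i _ => Submodule.smul_mem _ _ (mem_Sp z i)
  set e : (ℕ →₀ ℝ) →ₗ[ℝ] S := lz.codRestrict S hmem with he
  have hdense : DenseRange e := by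
    unfold DenseRange
    rw [Subtype.dense_iff]
    intro x hx
    refine closure_mono ?_ hx
    intro y hy
    have hy' : y ∈ Submodule.span ℝ (Set.range z) := hy
    rw [← Finsupp.range_linearCombination] at hy'
    obtain ⟨c, rfl⟩ := hy'
    exact ⟨e c, ⟨c, rfl⟩, rfl⟩
  have hn : ∀ c, ‖lu c‖ ≤ K * ‖e c‖ := fun c => real_of_rat z u h c
  set T0 : S →L[ℝ] E := lu.extendOfNorm e with hT0
  refine ⟨T0 ∘L S.orthogonalProjectionOnto, fun n => ?_, ?_, fun v hv => ?_⟩
  · have h1 : S.orthogonalProjectionOnto (z n) = e (Finsupp.single n 1) := by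
      have h2 : (⟨z n, mem_Sp z n⟩ : S) = e (Finsupp.single n 1) := by
        apply Subtype.ext
        simp [he, hlz]
      rw [← h2]
      exact Submodule.orthogonalProjectionOnto_mem_subspace_eq_self (K := S) ⟨z n, mem_Sp z n⟩
    rw [ContinuousLinearMap.comp_apply, h1, hT0,
      LinearMap.extendOfNorm_eq hdense ⟨K, hn⟩]
    simp [hlu]
  · refine (ContinuousLinearMap.opNorm_comp_le _ _).trans ?_
    have h1 : ‖T0‖ ≤ K := LinearMap.opNorm_extendOfNorm_le hdense hK hn
    have h2 : ‖S.orthogonalProjectionOnto‖ ≤ 1 := S.orthogonalProjectionOnto_norm_le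
    calc ‖T0‖ * ‖S.orthogonalProjectionOnto‖ ≤ K * 1 := mul_le_mul h1 h2 (ContinuousLinearMap.opNorm_nonneg _) hK
      _ = K := mul_one _
  · have h1 : S.orthogonalProjectionOnto v = 0 := by
      rw [Submodule.orthogonalProjectionOnto_eq_zero_iff]
      rw [Submodule.mem_orthogonal]
      intro w hw
      exact orth_Sp hv hw
    rw [ContinuousLinearMap.comp_apply, h1, map_zero]

/-- the defining property of the operator with `z n ↦ u n` -/
structure IsOp (z u : ℕ → E) (T : E →L[ℝ] E) : Prop where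
  map : ∀ n, T (z n) = u n
  ker : ∀ v, (∀ n, ⟪z n, v⟫_ℝ = 0) → T v = 0

theorem IsOp.rc {z u : ℕ → E} {T : E →L[ℝ] E} (hT : IsOp z u T) (c : ℕ →₀ ℚ) :
    T (rc z c) = rc u c := by
  unfold H362.rc Finsupp.sum
  rw [map_sum]
  refine Finset.sum_congr rfl fun i _ => ?_
  rw [map_smul, hT.map]

theorem proj_orth [CompleteSpace E] (z : ℕ → E) (v : E) (n : ℕ) :
    ⟪z n, v - (Sp z).starProjection v⟫_ℝ = 0 :=
  Submodule.sub_starProjection_mem_orthogonal (K := Sp z) v (z n) (mem_Sp z n)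

theorem IsOp.proj [CompleteSpace E] {z u : ℕ → E} {T : E →L[ℝ] E} (hT : IsOp z u T) (v : E) :
    T ((Sp z).starProjection v) = T v := by
  have h1 : T (v - (Sp z).starProjection v) = 0 := hT.ker _ (proj_orth z v)
  rw [map_sub, sub_eq_zero] at h1
  exact h1.symm

theorem IsOp.ext_on {z u : ℕ → E} {T : E →L[ℝ] E} (hT : IsOp z u T) {p : E → Prop}
    (hp : IsClosed {v | p v}) (h0 : p 0) (ha : ∀ v w, p v → p w → p (v + w))
    (hs : ∀ (c : ℝ) v, p v → p (c • v)) (hz : ∀ n, p (z n)) {v : E} (hv : v ∈ Sp z) : p v := by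
  have h1 : ∀ w ∈ Submodule.span ℝ (Set.range z), p w := by
    intro w hw
    induction hw using Submodule.span_induction with
    | mem x hx => obtain ⟨n, rfl⟩ := hx; exact hz n
    | zero => exact h0
    | add x y _ _ hx hy => exact ha _ _ hx hy
    | smul a x _ hx => exact hs _ _ hx
  exact closure_minimal (fun w hw => h1 w hw) hp hv

theorem IsOp.unique [CompleteSpace E] {z u : ℕ → E} {T T' : E →L[ℝ] E} (hT : IsOp z u T)
    (hT' : IsOp z u T') : T = T' := by
  ext v
  rw [← hT.proj v, ← hT'.proj v]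
  refine hT.ext_on (p := fun v => T v = T' v) ?_ ?_ ?_ ?_ ?_
    (Submodule.starProjection_apply_mem (Sp z) v)
  · exact isClosed_eq T.continuous T'.continuous
  · simp
  · intro v w hv hw; rw [map_add, map_add, hv, hw]
  · intro c v hv; rw [map_smul, map_smul, hv]
  · intro n; rw [hT.map, hT'.map]

theorem IsOp.mem [CompleteSpace E] {z u : ℕ → E} {T : E →L[ℝ] E} (hT : IsOp z u T)
    (hu : ∀ n, u n ∈ Sp z) (v : E) : T v ∈ Sp z := by
  rw [← hT.proj v]
  refine hT.ext_on (p := fun v => T v ∈ Sp z) ?_ ?_ ?_ ?_ ?_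
    (Submodule.starProjection_apply_mem (Sp z) v)
  · exact (Sp_isClosed z).preimage T.continuous
  · rw [map_zero]; exact Submodule.zero_mem _
  · intro v w hv hw; rw [map_add]; exact Submodule.add_mem _ hv hw
  · intro c v hv; rw [map_smul]; exact Submodule.smul_mem _ _ hv
  · intro n; rw [hT.map]; exact hu n

theorem IsOp.symm [CompleteSpace E] {z u : ℕ → E} {T : E →L[ℝ] E} (hT : IsOp z u T)
    (hu : ∀ n, u n ∈ Sp z) (hs : ∀ n k, ⟪u n, z k⟫_ℝ = ⟪z n, u k⟫_ℝ) (v w : E) :
    ⟪T v, w⟫_ℝ = ⟪v, T w⟫_ℝ := by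
  set P := (Sp z).starProjection with hP
  have h1 : ∀ v ∈ Sp z, ∀ w ∈ Sp z, ⟪T v, w⟫_ℝ = ⟪v, T w⟫_ℝ := by
    intro v hv w hw
    refine hT.ext_on (p := fun v => ⟪T v, w⟫_ℝ = ⟪v, T w⟫_ℝ) ?_ ?_ ?_ ?_ ?_ hv
    · exact isClosed_eq (T.continuous.inner continuous_const) (continuous_id.inner continuous_const)
    · simp
    · intro a b ha hb; rw [map_add, inner_add_left, inner_add_left, ha, hb]
    · intro c a ha; rw [map_smul, real_inner_smul_left, real_inner_smul_left, ha]
    · intro n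
      refine hT.ext_on (p := fun w => ⟪T (z n), w⟫_ℝ = ⟪z n, T w⟫_ℝ) ?_ ?_ ?_ ?_ ?_ hw
      · exact isClosed_eq (continuous_const.inner continuous_id)
          (continuous_const.inner T.continuous)
      · simp
      · intro a b ha hb; rw [map_add, inner_add_right, inner_add_right, ha, hb]
      · intro c a ha; rw [map_smul, real_inner_smul_right, real_inner_smul_right, ha]
      · intro k; rw [hT.map, hT.map]; exact hs n k
  have h2 : ∀ (a b : E), a ∈ Sp z → ⟪a, b⟫_ℝ = ⟪a, (P b : E)⟫_ℝ := by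
    intro a b ha
    have h3 : ⟪a, b - P b⟫_ℝ = 0 := orth_Sp (proj_orth z b) ha
    rw [inner_sub_right, sub_eq_zero] at h3
    exact h3
  calc ⟪T v, w⟫_ℝ = ⟪T (P v), (P w : E)⟫_ℝ := by
        rw [h2 _ _ (hT.mem hu v), hP, hT.proj v]
    _ = ⟪(P v : E), T (P w)⟫_ℝ := h1 _ (Submodule.starProjection_apply_mem (Sp z) v) _ (Submodule.starProjection_apply_mem (Sp z) w)
    _ = ⟪v, T w⟫_ℝ := by
        rw [hP, hT.proj w, real_inner_comm, ← h2 _ _ (hT.mem hu w), real_inner_comm]

/-- rational combinations are dense in the closed span -/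
theorem exists_rc_near {z : ℕ → E} {s : E} (hs : s ∈ Sp z) {ε : ℝ} (hε : 0 < ε) :
    ∃ c : ℕ →₀ ℚ, ‖s - rc z c‖ < ε := by
  have key : ∀ (t : Finset ℕ) (a : ℕ → ℝ), ∑ i ∈ t, a i • z i ∈ closure (Set.range (rc z)) := by
    intro t
    have hd : DenseRange (Pi.map fun _ : ℕ => ((↑) : ℚ → ℝ)) :=
      DenseRange.piMap fun _ => Rat.denseRange_cast
    intro a
    refine hd.induction_on (p := fun a => ∑ i ∈ t, a i • z i ∈ closure (Set.range (rc z))) a ?_ ?_
    · refine isClosed_closure.preimage ?_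
      fun_prop
    intro b
    refine subset_closure ⟨Finsupp.indicator t fun i _ => b i, ?_⟩
    rw [lc_indicator]
    rfl
  have h1 : (Submodule.span ℝ (Set.range z) : Set E) ⊆ closure (Set.range (rc z)) := by
    intro y hy
    have hy' : y ∈ Submodule.span ℝ (Set.range z) := hy
    rw [← Finsupp.range_linearCombination] at hy'
    obtain ⟨c, rfl⟩ := hy'
    rw [Finsupp.linearCombination_apply]
    exact key c.support c
  have h2 : s ∈ closure (Set.range (rc z)) := closure_minimal h1 isClosed_closure hs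
  obtain ⟨y, ⟨c, rfl⟩, hy⟩ := Metric.mem_closure_iff.1 h2 ε hε
  exact ⟨c, by rwa [dist_eq_norm] at hy⟩

theorem IsOp.norm_le [CompleteSpace E] {z u : ℕ → E} {T : E →L[ℝ] E} (hT : IsOp z u T) {K : ℝ}
    (hK : 0 ≤ K) (h : ∀ c : ℕ →₀ ℚ, ‖H362.rc u c‖ ≤ K * ‖H362.rc z c‖) : ‖T‖ ≤ K := by
  obtain ⟨T', h1, h2, h3⟩ := exists_op z u hK h
  rw [hT.unique ⟨h1, h3⟩]
  exact h2

/-! ### measurability -/

section meas

variable {M : Type*} [MeasurableSpace M] {m : Measure M}

open Classical in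
/-- the best approximation of `w` among the first `k + 1` of the functions `Z j`, and the
corresponding `V j` -/
noncomputable def best (w : M → E) (Z V : ℕ → M → E) : ℕ → M → E × E
  | 0 => fun x => (Z 0 x, V 0 x)
  | k + 1 => fun x => if ‖w x - Z (k + 1) x‖ < ‖w x - (best w Z V k x).1‖ then
      (Z (k + 1) x, V (k + 1) x) else best w Z V k x

theorem best_spec (w : M → E) (Z V : ℕ → M → E) (k : ℕ) (x : M) :
    (∃ j, best w Z V k x = (Z j x, V j x)) ∧
      ∀ j ≤ k, ‖w x - (best w Z V k x).1‖ ≤ ‖w x - Z j x‖ := by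
  induction k with
  | zero =>
    refine ⟨⟨0, rfl⟩, fun j hj => ?_⟩
    obtain rfl : j = 0 := by omega
    exact le_rfl
  | succ k ih =>
    obtain ⟨⟨j0, hj0⟩, h2⟩ := ih
    unfold best
    split_ifs with h
    · refine ⟨⟨k + 1, rfl⟩, fun j hj => ?_⟩
      rcases Nat.lt_or_ge j (k + 1) with hlt | hge
      · exact h.le.trans (h2 j (by omega))
      · obtain rfl : j = k + 1 := by omega
        exact le_rfl
    · refine ⟨⟨j0, hj0⟩, fun j hj => ?_⟩
      rcases Nat.lt_or_ge j (k + 1) with hlt | hge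
      · exact h2 j (by omega)
      · obtain rfl : j = k + 1 := by omega
        exact not_lt.1 h

theorem best_meas {w : M → E} {Z V : ℕ → M → E} (hw : StronglyMeasurable w)
    (hZ : ∀ j, StronglyMeasurable (Z j)) (hV : ∀ j, StronglyMeasurable (V j)) (k : ℕ) :
    StronglyMeasurable (best w Z V k) := by
  induction k with
  | zero => exact (hZ 0).prodMk (hV 0)
  | succ k ih =>
    unfold best
    refine StronglyMeasurable.ite ?_ ((hZ _).prodMk (hV _)) ih
    exact measurableSet_lt ((hw.sub (hZ _)).norm.measurable) ((hw.sub ih.fst).norm.measurable)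

theorem rc_meas {z : ℕ → M → E} (hz : ∀ n, StronglyMeasurable (z n)) (c : ℕ →₀ ℚ) :
    StronglyMeasurable fun x => rc (fun n => z n x) c := by
  unfold rc Finsupp.sum
  exact Finset.stronglyMeasurable_fun_sum _ fun i _ => (hz i).const_smul _

theorem best_tendsto [CompleteSpace E] {w : E} {z : ℕ → E} {A : ℕ → E}
    (hA : ∀ k, A k ∈ Sp z) (hmin : ∀ c : ℕ →₀ ℚ, ∀ᶠ k in atTop, ‖w - A k‖ ≤ ‖w - rc z c‖) :
    Tendsto A atTop (𝓝 ((Sp z).starProjection w : E)) := by
  set P : E := ((Sp z).starProjection w : E) with hP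
  have hPm : P ∈ Sp z := Submodule.starProjection_apply_mem (Sp z) w
  have hpy : ∀ a ∈ Sp z, ‖w - a‖ ^ 2 = ‖w - P‖ ^ 2 + ‖P - a‖ ^ 2 := by
    intro a ha
    have h1 : ⟪P - a, w - P⟫_ℝ = 0 := orth_Sp (proj_orth z w) (Submodule.sub_mem _ hPm ha)
    have h2 : w - a = (w - P) + (P - a) := by abel
    rw [h2, norm_add_sq_real, real_inner_comm, h1]
    ring
  rw [Metric.tendsto_atTop]
  intro ε hε
  obtain ⟨c, hc⟩ := exists_rc_near hPm hε
  obtain ⟨N, hN⟩ := eventually_atTop.1 (hmin c)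
  refine ⟨N, fun k hk => ?_⟩
  have h1 := hN k hk
  have h2 := hpy _ (hA k)
  have h3 := hpy _ (rc_mem_Sp z c)
  have h4 : ‖w - A k‖ ^ 2 ≤ ‖w - rc z c‖ ^ 2 := pow_le_pow_left₀ (norm_nonneg _) h1 2
  have h5 : ‖P - A k‖ ^ 2 ≤ ‖P - rc z c‖ ^ 2 := by linarith
  have h6 : ‖P - A k‖ ≤ ‖P - rc z c‖ := by
    exact (pow_le_pow_iff_left₀ (norm_nonneg _) (norm_nonneg _) two_ne_zero).1 h5
  rw [dist_comm, dist_eq_norm]
  exact h6.trans_lt hc

theorem meas_op [CompleteSpace E] {z u : ℕ → M → E} {w : M → E}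
    (hz : ∀ n, AEStronglyMeasurable (z n) m) (hu : ∀ n, AEStronglyMeasurable (u n) m)
    (hw : AEStronglyMeasurable w m) {T : M → E →L[ℝ] E}
    (hT : ∀ᵐ x ∂m, IsOp (fun n => z n x) (fun n => u n x) (T x)) :
    AEStronglyMeasurable (fun x => T x (w x)) m := by
  obtain ⟨c, hc⟩ := exists_surjective_nat (ℕ →₀ ℚ)
  set z' : ℕ → M → E := fun n => (hz n).mk (z n)
  set u' : ℕ → M → E := fun n => (hu n).mk (u n)
  set w' : M → E := hw.mk w
  set Z : ℕ → M → E := fun j x => rc (fun n => z' n x) (c j)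
  set V : ℕ → M → E := fun j x => rc (fun n => u' n x) (c j)
  have hZ : ∀ j, StronglyMeasurable (Z j) := fun j => rc_meas (fun n => (hz n).stronglyMeasurable_mk) _
  have hV : ∀ j, StronglyMeasurable (V j) := fun j => rc_meas (fun n => (hu n).stronglyMeasurable_mk) _
  have hB : ∀ k, StronglyMeasurable fun x => (best w' Z V k x).2 := fun k =>
    (best_meas hw.stronglyMeasurable_mk hZ hV k).snd
  refine aestronglyMeasurable_of_tendsto_ae atTop (fun k => (hB k).aestronglyMeasurable) ?_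
  have e1 : ∀ᵐ x ∂m, ∀ n, z n x = z' n x := ae_all_iff.2 fun n => (hz n).ae_eq_mk
  have e2 : ∀ᵐ x ∂m, ∀ n, u n x = u' n x := ae_all_iff.2 fun n => (hu n).ae_eq_mk
  filter_upwards [hT, e1, e2, hw.ae_eq_mk] with x a1 a2 a3 a4
  have a1' : IsOp (fun n => z' n x) (fun n => u' n x) (T x) := by
    simpa only [a2, a3] using a1
  have hA : ∀ k, (best w' Z V k x).1 ∈ Sp (fun n => z' n x) := by
    intro k
    obtain ⟨⟨j, hj⟩, -⟩ := best_spec w' Z V k x
    rw [hj]
    exact rc_mem_Sp _ _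
  have hlim : Tendsto (fun k => (best w' Z V k x).1) atTop
      (𝓝 ((Sp (fun n => z' n x)).starProjection (w' x) : E)) := by
    refine best_tendsto hA fun d => ?_
    obtain ⟨j, rfl⟩ := hc d
    filter_upwards [eventually_ge_atTop j] with k hk
    exact (best_spec w' Z V k x).2 j hk
  have h3 : ∀ k, (best w' Z V k x).2 = T x (best w' Z V k x).1 := by
    intro k
    obtain ⟨⟨j, hj⟩, -⟩ := best_spec w' Z V k x
    rw [hj]
    exact (a1'.rc _).symm
  simp only [h3]
  rw [a4, ← a1'.proj (w' x)]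
  exact ((T x).continuous.tendsto _).comp hlim

theorem meas_norm_op [SecondCountableTopology E] {T : M → E →L[ℝ] E}
    (hT : ∀ v : E, AEStronglyMeasurable (fun x => T x v) m) :
    AEMeasurable (fun x => ‖T x‖) m := by
  obtain ⟨D, hD1, hD2⟩ := TopologicalSpace.exists_countable_dense E
  have hne : D.Nonempty := hD2.nonempty
  obtain ⟨d, hd⟩ := hD1.exists_eq_range hne
  have hdd : DenseRange d := by rw [DenseRange, ← hd]; exact hD2
  -- `‖T‖ = ⨆ ‖T d‖ / ‖d‖`
  have key : ∀ T : E →L[ℝ] E, ∀ r : ℝ, 0 ≤ r → ((∀ n, ‖T (d n)‖ ≤ r * ‖d n‖) ↔ ‖T‖ ≤ r) := by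
    intro T r hr
    constructor
    · intro h
      refine T.opNorm_le_bound hr fun v => ?_
      exact hdd.induction_on (p := fun v => ‖T v‖ ≤ r * ‖v‖) v
        (isClosed_le (by fun_prop) (by fun_prop)) h
    · intro h n
      exact (T.le_opNorm _).trans (mul_le_mul_of_nonneg_right h (norm_nonneg _))
  have hm : ∀ n, AEMeasurable (fun x => ‖T x (d n)‖) m := fun n => (hT (d n)).norm.aemeasurable
  set g : ℕ → M → ℝ := fun n => (hm n).mk _
  -- the supremum in `ENNReal`
  have hsup : ∀ᵐ x ∂m, ENNReal.ofReal ‖T x‖ = ⨆ n, ENNReal.ofReal (g n x) / ENNReal.ofReal ‖d n‖ := by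
    filter_upwards [ae_all_iff.2 fun n => (hm n).ae_eq_mk] with x hx
    have hx' : ∀ n, g n x = ‖T x (d n)‖ := fun n => (hx n).symm
    apply le_antisymm
    · by_cases htop : (⨆ n, ENNReal.ofReal (g n x) / ENNReal.ofReal ‖d n‖) = ∞
      · rw [htop]; exact le_top
      · set s := (⨆ n, ENNReal.ofReal (g n x) / ENNReal.ofReal ‖d n‖) with hs
        have h1 : ‖T x‖ ≤ s.toReal := by
          rw [← key _ _ ENNReal.toReal_nonneg]
          intro n
          rcases eq_or_ne (d n) 0 with h0 | h0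
          · rw [h0]; simp
          have hp : 0 < ‖d n‖ := norm_pos_iff.2 h0
          have h2 : ENNReal.ofReal (g n x) / ENNReal.ofReal ‖d n‖ ≤ s :=
            le_iSup (fun n => ENNReal.ofReal (g n x) / ENNReal.ofReal ‖d n‖) n
          rw [hx', ← ENNReal.ofReal_div_of_pos hp] at h2
          have h3 := (ENNReal.ofReal_le_iff_le_toReal htop).1 h2
          rwa [div_le_iff₀ hp] at h3
        exact ENNReal.ofReal_le_of_le_toReal h1
    · refine iSup_le fun n => ?_
      rcases eq_or_ne (d n) 0 with h0 | h0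
      · rw [hx', h0]; simp
      have hp : 0 < ‖d n‖ := norm_pos_iff.2 h0
      rw [hx', ← ENNReal.ofReal_div_of_pos hp]
      refine ENNReal.ofReal_le_ofReal ?_
      rw [div_le_iff₀ hp]
      exact (T x).le_opNorm _
  have hmeas : Measurable fun x => ⨆ n, ENNReal.ofReal (g n x) / ENNReal.ofReal ‖d n‖ :=
    Measurable.iSup fun n => ((hm n).measurable_mk.ennreal_ofReal).div_const _
  refine ⟨fun x => (⨆ n, ENNReal.ofReal (g n x) / ENNReal.ofReal ‖d n‖).toReal,
    hmeas.ennreal_toReal, ?_⟩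
  filter_upwards [hsup] with x hx
  rw [← hx, ENNReal.toReal_ofReal (norm_nonneg _)]

end meas

end Vale.Agent.P233.H362
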