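import Vale.Agent.P233.H362.HopA
import Vale.Agent.P233.H853.Hop2
import Vale.Agent.P233.Gig.Defs

set_option linter.all false

/-!
# Fields of bounded operators; the norm of the Hessian operator of a test function
-/

open MeasureTheory Filter Topology
open scoped ENNReal NNReal InnerProductSpace

namespace Vale.Agent.P233.H362

variable {M : Type*} [MeasurableSpace M] {m : Measure M}
variable {E : Type*} [NormedAddCommGroup E] [InnerProductSpace ℝ E]

/-! ### measurable operator fields -/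

/-- a measurable field of bounded operators -/
def OM (m : Measure M) (T : M → E →L[ℝ] E) : Prop :=
  ∀ v : E, AEStronglyMeasurable (fun x => T x v) m

section om

variable {T S : M → E →L[ℝ] E}

theorem OM.add (hT : OM m T) (hS : OM m S) : OM m fun x => T x + S x := fun v => by
  exact (hT v).add (hS v)

theorem OM.sub (hT : OM m T) (hS : OM m S) : OM m fun x => T x - S x := fun v => by
  exact (hT v).sub (hS v)

theorem OM.smul (c : ℝ) (hT : OM m T) : OM m fun x => c • T x := fun v => by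
  exact (hT v).const_smul c

theorem OM.zero : OM m fun _ : M => (0 : E →L[ℝ] E) := fun v => by
  simpa using aestronglyMeasurable_const

theorem OM.congr (hT : OM m T) (h : ∀ᵐ x ∂m, T x = S x) : OM m S := fun v => by
  refine (hT v).congr ?_
  filter_upwards [h] with x hx
  rw [hx]

theorem OM.lim {Tn : ℕ → M → E →L[ℝ] E} (hT : ∀ n, OM m (Tn n))
    (h : ∀ᵐ x ∂m, Tendsto (fun n => Tn n x) atTop (𝓝 (T x))) : OM m T := fun v => by
  refine aestronglyMeasurable_of_tendsto_ae atTop (fun n => hT n v) ?_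
  filter_upwards [h] with x hx
  exact ((ContinuousLinearMap.apply ℝ E v).continuous.tendsto _).comp hx

/-- evaluation at a measurable field of vectors -/
theorem OM.apply (hT : OM m T) {w : M → E} (hw : AEStronglyMeasurable w m) :
    AEStronglyMeasurable (fun x => T x (w x)) m := by
  have hs : ∀ s : SimpleFunc M E, AEStronglyMeasurable (fun x => T x (s x)) m := by
    intro s
    have h1 : (fun x => T x (s x)) = fun x => ∑ v ∈ s.range,
        (s ⁻¹' {v}).indicator (fun x => T x v) x := by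
      funext x
      rw [Finset.sum_eq_single (s x)]
      · rw [Set.indicator_of_mem (by simp)]
      · intro v _ hv
        rw [Set.indicator_of_notMem]
        simpa using hv.symm
      · intro h
        exact absurd (SimpleFunc.mem_range_self s x) h
    rw [h1]
    exact Finset.aestronglyMeasurable_fun_sum _ fun v _ => (hT v).indicator (s.measurableSet_fiber v)
  have h2 := hw.stronglyMeasurable_mk
  refine aestronglyMeasurable_of_tendsto_ae atTop (fun n => hs (h2.approx n)) ?_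
  filter_upwards [hw.ae_eq_mk] with x hx
  rw [hx]
  exact ((T x).continuous.tendsto _).comp (h2.tendsto_approx x)

variable [SecondCountableTopology E]

theorem OM.norm (hT : OM m T) : AEMeasurable (fun x => ‖T x‖) m := meas_norm_op hT

/-- the square of the norm in `L²` -/
noncomputable def sq (m : Measure M) (T : M → E →L[ℝ] E) : ℝ≥0∞ :=
  ∫⁻ x, ENNReal.ofReal (‖T x‖ ^ 2) ∂m

theorem sq_congr (h : ∀ᵐ x ∂m, T x = S x) : sq m T = sq m S := by
  refine lintegral_congr_ae ?_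
  filter_upwards [h] with x hx
  rw [hx]

theorem sq_add_le (hT : OM m T) (hS : OM m S) :
    sq m (fun x => T x + S x) ≤ 2 * sq m T + 2 * sq m S := by
  unfold sq
  have h2 : AEMeasurable (fun x => ENNReal.ofReal (‖T x‖ ^ 2)) m :=
    (hT.norm.pow_const 2).ennreal_ofReal
  rw [← lintegral_const_mul' _ _ (by simp), ← lintegral_const_mul' _ _ (by simp),
    ← lintegral_add_left' (h2.const_mul _)]
  refine lintegral_mono fun x => ?_
  have h3 : ‖T x + S x‖ ^ 2 ≤ 2 * ‖T x‖ ^ 2 + 2 * ‖S x‖ ^ 2 := by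
    have h4 := norm_add_le (T x) (S x)
    have h5 : ‖T x + S x‖ ^ 2 ≤ (‖T x‖ + ‖S x‖) ^ 2 := by gcongr
    linarith [sq_nonneg (‖T x‖ - ‖S x‖)]
  refine (ENNReal.ofReal_le_ofReal h3).trans ?_
  rw [ENNReal.ofReal_add (by positivity) (by positivity), ENNReal.ofReal_mul (by norm_num),
    ENNReal.ofReal_mul (by norm_num)]
  simp

theorem sq_sub_comm (T S : M → E →L[ℝ] E) :
    sq m (fun x => T x - S x) = sq m fun x => S x - T x := by
  unfold sq
  refine lintegral_congr fun x => ?_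
  rw [norm_sub_rev]

theorem sq_smul (c : ℝ) (T : M → E →L[ℝ] E) :
    sq m (fun x => c • T x) = ENNReal.ofReal (c ^ 2) * sq m T := by
  unfold sq
  rw [← lintegral_const_mul' _ _ (by simp)]
  refine lintegral_congr fun x => ?_
  rw [norm_smul, mul_pow, Real.norm_eq_abs, sq_abs, ENNReal.ofReal_mul (sq_nonneg c)]

theorem eq_of_sq {T S : M → E →L[ℝ] E} (hT : OM m T) (hS : OM m S)
    (h : sq m (fun x => T x - S x) = 0) : ∀ᵐ x ∂m, T x = S x := by
  have h1 : AEMeasurable (fun x => ENNReal.ofReal (‖T x - S x‖ ^ 2)) m :=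
    ((hT.sub hS).norm.pow_const 2).ennreal_ofReal
  have h2 := (lintegral_eq_zero_iff' h1).1 h
  filter_upwards [h2] with x hx
  have h3 : ‖T x - S x‖ ^ 2 ≤ 0 := ENNReal.ofReal_eq_zero.1 hx
  have h4 : ‖T x - S x‖ = 0 := by
    have := sq_nonneg (‖T x - S x‖)
    exact pow_eq_zero_iff two_ne_zero |>.1 (le_antisymm h3 this)
  exact sub_eq_zero.1 (norm_eq_zero.1 h4)

/-- `sq` in terms of the Bochner integral -/
theorem sq_eq (hT : OM m T) (hfin : sq m T ≠ ∞) : MemLp (fun x => ‖T x‖) 2 m ∧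
    ∫ x, ‖T x‖ ^ 2 ∂m = (sq m T).toReal := by
  have h1 : AEStronglyMeasurable (fun x => ‖T x‖) m := hT.norm.aestronglyMeasurable
  have h2 : Integrable (fun x => ‖T x‖ ^ 2) m := by
    refine ⟨h1.pow 2, ?_⟩
    rw [hasFiniteIntegral_iff_norm]
    have : ∀ x, ‖‖T x‖ ^ 2‖ = ‖T x‖ ^ 2 := fun x => by
      rw [Real.norm_eq_abs, abs_of_nonneg (sq_nonneg _)]
    simp only [this]
    exact lt_top_iff_ne_top.2 hfin
  refine ⟨(memLp_two_iff_integrable_sq h1).2 h2, ?_⟩
  rw [integral_eq_lintegral_of_nonneg_ae (Eventually.of_forall fun x => sq_nonneg _)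
    h2.aestronglyMeasurable]
  rfl

end om

/-! ### a Cauchy sequence of operator fields -/

section cauchy

variable [SecondCountableTopology E] [CompleteSpace E]

/-- fast Cauchy sequences converge a.e. -/
theorem exists_lim {Tn : ℕ → M → E →L[ℝ] E} (hT : ∀ n, OM m (Tn n))
    (h : ∀ n, sq m (fun x => Tn n x - Tn (n + 1) x) ≤ ENNReal.ofReal ((8 : ℝ)⁻¹ ^ n)) :
    ∀ᵐ x ∂m, CauchySeq fun n => Tn n x := by
  set g : ℕ → M → ℝ≥0∞ := fun n x => ENNReal.ofReal (4 ^ n) *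
    ENNReal.ofReal (‖Tn n x - Tn (n + 1) x‖ ^ 2) with hg
  have hgm : ∀ n, AEMeasurable (g n) m := fun n =>
    ((((hT n).sub (hT (n + 1))).norm.pow_const 2).ennreal_ofReal).const_mul _
  have h1 : ∀ n, ∫⁻ x, g n x ∂m ≤ ENNReal.ofReal ((2 : ℝ)⁻¹ ^ n) := by
    intro n
    rw [hg]
    simp only
    rw [lintegral_const_mul' _ _ (by simp)]
    refine (mul_le_mul_right (h n) _).trans ?_
    rw [← ENNReal.ofReal_mul (by positivity), ← mul_pow]
    norm_num
  have h2 : ∫⁻ x, ∑' n, g n x ∂m < ∞ := by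
    rw [lintegral_tsum hgm]
    refine lt_of_le_of_lt (ENNReal.tsum_le_tsum h1) ?_
    rw [← ENNReal.ofReal_tsum_of_nonneg (fun n => by positivity)
      (summable_geometric_of_lt_one (by norm_num) (by norm_num))]
    exact ENNReal.ofReal_lt_top
  have h3 := ae_lt_top' (AEMeasurable.ennreal_tsum hgm) h2.ne
  filter_upwards [h3] with x hx
  set S := (∑' n, g n x).toReal with hS
  have h4 : ∀ n, (4 : ℝ) ^ n * ‖Tn n x - Tn (n + 1) x‖ ^ 2 ≤ S := by
    intro n
    have h5 : g n x ≤ ∑' n, g n x := ENNReal.le_tsum n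
    have h6 := ENNReal.toReal_mono hx.ne h5
    rw [hg] at h6
    simp only at h6
    rw [← ENNReal.ofReal_mul (by positivity), ENNReal.toReal_ofReal (by positivity)] at h6
    exact h6
  have hS0 : 0 ≤ S := ENNReal.toReal_nonneg
  refine cauchySeq_of_le_geometric (2 : ℝ)⁻¹ (√S) (by norm_num) fun n => ?_
  rw [dist_eq_norm]
  have h5 := h4 n
  have h6 : (2 ^ n * ‖Tn n x - Tn (n + 1) x‖) ^ 2 ≤ S := by
    calc (2 ^ n * ‖Tn n x - Tn (n + 1) x‖) ^ 2 = (4 : ℝ) ^ n * ‖Tn n x - Tn (n + 1) x‖ ^ 2 := by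
          rw [mul_pow, ← pow_mul, mul_comm n 2, pow_mul]; norm_num
      _ ≤ S := h5
  have h7 : 2 ^ n * ‖Tn n x - Tn (n + 1) x‖ ≤ √S := Real.le_sqrt_of_sq_le h6
  rw [inv_pow, ← div_eq_mul_inv, le_div_iff₀ (by positivity)]
  linarith

/-- lower semicontinuity -/
theorem sq_liminf {Tn : ℕ → M → E →L[ℝ] E} {T : M → E →L[ℝ] E} (hT : ∀ n, OM m (Tn n))
    (h : ∀ᵐ x ∂m, Tendsto (fun n => Tn n x) atTop (𝓝 (T x))) {c : ℝ≥0∞}
    (hc : ∀ᶠ n in atTop, sq m (Tn n) ≤ c) : sq m T ≤ c := by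
  have h1 : sq m T = ∫⁻ x, liminf (fun n => ENNReal.ofReal (‖Tn n x‖ ^ 2)) atTop ∂m := by
    refine lintegral_congr_ae ?_
    filter_upwards [h] with x hx
    exact ((ENNReal.continuous_ofReal.tendsto _).comp ((hx.norm).pow 2)).liminf_eq.symm
  rw [h1]
  refine (lintegral_liminf_le' fun n => ((hT n).norm.pow_const 2).ennreal_ofReal).trans ?_
  refine (liminf_le_liminf (v := fun _ => c) hc).trans ?_
  simp

end cauchy

/-! ### the Hessian operator of a test function -/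

section test

variable {C : Calc m} {Gr : (M →ₘ[m] ℝ) → M → E} {HO : (M →ₘ[m] ℝ) → M → E →L[ℝ] E}

/-- a countable family of test functions which is dense in `W` -/
structure DenseT (C : Calc m) (e : ℕ → M →ₘ[m] ℝ) : Prop where
  test : ∀ n, e n ∈ C.Test
  dense : ∀ f ∈ C.W, ∀ ε > 0, ∃ n, C.nrm2 (e n - f) < ε

/-- rational combinations of the family -/
noncomputable def rl (e : ℕ → M →ₘ[m] ℝ) (c : ℕ →₀ ℚ) : M →ₘ[m] ℝ :=
  ∑ i ∈ c.support, (c i : ℝ) • e i

variable (hC : IsGamma C) {κ : ℝ} (hB : C.BEi κ)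
include hC hB

theorem exists_denseT [SigmaFinite m] [MeasurableSpace.CountablyGenerated M] :
    ∃ e, DenseT C e := by
  obtain ⟨w, hw, hd⟩ := H853.exists_test_seq hC hB
  exact ⟨w, hw, hd⟩

theorem rl_test {e : ℕ → M →ₘ[m] ℝ} (he : DenseT C e) (c : ℕ →₀ ℚ) : rl e c ∈ C.Test :=
  hC.test_sum hB _ fun i => hC.test_smul hB _ (he.test i)

theorem Gr_rl (hG : IsGrad C Gr) {e : ℕ → M →ₘ[m] ℝ} (he : DenseT C e) (c : ℕ →₀ ℚ) :
    ∀ᵐ x ∂m, Gr (rl e c) x = rc (fun n => Gr (e n) x) c := by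
  have key : ∀ s : Finset ℕ, ∀ᵐ x ∂m, Gr (∑ i ∈ s, (c i : ℝ) • e i) x =
      ∑ i ∈ s, (c i : ℝ) • Gr (e i) x := by
    intro s
    classical
    induction s using Finset.induction_on with
    | empty =>
      filter_upwards [hG.zero hC.toIsDir] with x hx
      simpa using hx
    | insert i s hi ih =>
      have hs : ∑ i ∈ s, (c i : ℝ) • e i ∈ C.W :=
        hC.tW (hC.test_sum hB s fun i => hC.test_smul hB _ (he.test i))
      rw [Finset.sum_insert hi]
      filter_upwards [ih, hG.add hC.toIsDir (hC.smul_mem (c i : ℝ) _ (hC.tW (he.test i))) hs,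
        hG.smul hC.toIsDir (c i : ℝ) (hC.tW (he.test i))] with x a1 a2 a3
      rw [a2, a1, a3, Finset.sum_insert hi]
  exact key c.support

variable [SigmaFinite m] [MeasurableSpace.CountablyGenerated M] [CompleteSpace E]

omit [SigmaFinite m] [MeasurableSpace.CountablyGenerated M] [CompleteSpace E] hB in
theorem range_mem (hH : IsHess C Gr HO) {e : ℕ → M →ₘ[m] ℝ} (he : DenseT C e)
    {b : M →ₘ[m] ℝ} (hb : b ∈ C.Test) :
    ∀ᵐ x ∂m, ∀ v : E, HO b x v ∈ Sp fun n => Gr (e n) x := by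
  refine hH.range e he.test (fun f hf δ hδ => ?_) b hb
  obtain ⟨n, hn⟩ := he.dense f hf δ hδ
  exact ⟨n, by rwa [hC.toIsDir.nrm2_sub_comm hf (hC.tW (he.test n))]⟩

omit [SigmaFinite m] [MeasurableSpace.CountablyGenerated M] hB in
theorem isOp (hH : IsHess C Gr HO) {e : ℕ → M →ₘ[m] ℝ} (he : DenseT C e)
    {b : M →ₘ[m] ℝ} (hb : b ∈ C.Test) :
    ∀ᵐ x ∂m, IsOp (fun n => Gr (e n) x) (fun n => HO b x (Gr (e n) x)) (HO b x) := by
  filter_upwards [range_mem hC hH he hb, hH.symm b hb] with x h1 h2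
  refine ⟨fun n => rfl, fun v hv => ?_⟩
  have h3 : ⟪HO b x v, HO b x v⟫_ℝ = 0 := by
    rw [h2, real_inner_comm]
    exact orth_Sp hv (h1 _)
  exact inner_self_eq_zero.1 h3

omit [SigmaFinite m] [MeasurableSpace.CountablyGenerated M] in
theorem norm_le_of_hess (hG : IsGrad C Gr) (hH : IsHess C Gr HO) {e : ℕ → M →ₘ[m] ℝ}
    (he : DenseT C e) {b : M →ₘ[m] ℝ} (hb : b ∈ C.Test) {D : M →ₘ[m] ℝ} (hD0 : 0 ≤ D)
    (hD : ∀ f ∈ C.Test, ∀ h ∈ C.Test, ∀ᵐ x ∂m,
      |C.hess b f h x| ≤ D x * (√(C.Γ f f x) * √(C.Γ h h x))) :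
    ∀ᵐ x ∂m, ‖HO b x‖ ≤ D x := by
  have h1 : ∀ᵐ x ∂m, ∀ c c' : ℕ →₀ ℚ, |⟪HO b x (rc (fun n => Gr (e n) x) c),
      rc (fun n => Gr (e n) x) c'⟫_ℝ| ≤
      D x * (‖rc (fun n => Gr (e n) x) c‖ * ‖rc (fun n => Gr (e n) x) c'‖) := by
    rw [ae_all_iff]; intro c; rw [ae_all_iff]; intro c'
    have k1 := rl_test hC hB he c
    have k2 := rl_test hC hB he c'
    filter_upwards [Gr_rl hC hB hG he c, Gr_rl hC hB hG he c', hH.grad b hb _ k1 _ k2,
      hD _ k1 _ k2, hG.norm_eq (hC.tW k1), hG.norm_eq (hC.tW k2)] with x a1 a2 a3 a4 a5 a6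
    rw [← a1, ← a2, a3, a5, a6]
    exact a4
  filter_upwards [h1, isOp hC hH he hb, range_mem hC hH he hb, nonneg_iff_ae.1 hD0]
    with x h1 h2 h3 h4
  refine h2.norm_le h4 fun c => ?_
  rw [← h2.rc c]
  set z : ℕ → E := fun n => Gr (e n) x with hz
  set w := HO b x (rc z c) with hw
  have hwm : w ∈ Sp z := h3 _
  -- `|⟨w, v⟩| ≤ D ‖rc z c‖ ‖v‖` for `v` in the closed span
  have h5 : ‖w‖ ^ 2 ≤ D x * ‖rc z c‖ * ‖w‖ := by
    refine le_of_forall_pos_le_add fun δ hδ => ?_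
    set K := ‖w‖ + D x * ‖rc z c‖ + 1 with hK
    have hK0 : 0 < K := by positivity
    obtain ⟨c', hc'⟩ := exists_rc_near hwm (ε := δ / K) (by positivity)
    have h6 := h1 c c'
    have h7 : ‖w‖ ^ 2 = ⟪w, rc z c'⟫_ℝ + ⟪w, w - rc z c'⟫_ℝ := by
      rw [← inner_add_right, add_sub_cancel, real_inner_self_eq_norm_sq]
    have h8 : ⟪w, w - rc z c'⟫_ℝ ≤ ‖w‖ * (δ / K) :=
      (real_inner_le_norm _ _).trans (mul_le_mul_of_nonneg_left hc'.le (norm_nonneg _))
    have h9 : ‖rc z c'‖ ≤ ‖w‖ + δ / K := by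
      have := norm_sub_norm_le (rc z c') w
      rw [norm_sub_rev] at this
      linarith
    have h10 : ⟪w, rc z c'⟫_ℝ ≤ D x * ‖rc z c‖ * (‖w‖ + δ / K) := by
      refine (le_abs_self _).trans (h6.trans ?_)
      rw [← mul_assoc]
      exact mul_le_mul_of_nonneg_left h9 (by positivity)
    have h11 : (‖w‖ + D x * ‖rc z c‖) * (δ / K) ≤ δ := by
      rw [← mul_div_assoc, div_le_iff₀ hK0, mul_comm]
      exact mul_le_mul_of_nonneg_left (by rw [hK]; linarith) hδ.le
    linarith [h7, h8, h10, h11]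
  rcases eq_or_ne ‖w‖ 0 with h0 | h0
  · rw [h0]; positivity
  · have hpos : 0 < ‖w‖ := lt_of_le_of_ne (norm_nonneg _) (Ne.symm h0)
    rw [pow_two] at h5
    exact le_of_mul_le_mul_right h5 hpos

variable [SecondCountableTopology E]

/-- the norm of the Hessian operator: the sharp weighted bound -/
theorem norm_test (hG : IsGrad C Gr) (hH : IsHess C Gr HO) {b : M →ₘ[m] ℝ} (hb : b ∈ C.Test) :
    (∀ φ ∈ C.A, 0 ≤ φ → Integrable (fun x => φ x * ‖HO b x‖ ^ 2) m ∧
      ∫ x, φ x * ‖HO b x‖ ^ 2 ∂m ≤ C.NN κ b b φ) ∧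
    sq m (HO b) ≤ ENNReal.ofReal (I (C.lap b ^ 2) - κ * I (C.Γ b b)) := by
  obtain ⟨e, he⟩ := exists_denseT hC hB
  obtain ⟨D, hD0, hD2, hDh, hDφ, hDt⟩ := H853.exists_hop hC hB hb
  have hn := norm_le_of_hess hC hB hG hH he hb hD0 hDh
  have hm : AEStronglyMeasurable (fun x => ‖HO b x‖ ^ 2) m :=
    ((OM.norm (T := HO b) (hH.meas b hb)).aestronglyMeasurable).pow 2
  constructor
  · intro φ hφ hφ0
    obtain ⟨h1, h2⟩ := hDφ φ hφ hφ0
    have h3 : ∀ᵐ x ∂m, 0 ≤ φ x * ‖HO b x‖ ^ 2 ∧ φ x * ‖HO b x‖ ^ 2 ≤ (φ * D ^ 2) x := by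
      filter_upwards [hn, nonneg_iff_ae.1 hφ0, mul_ae φ (D ^ 2), sq_ae D] with x a1 a2 a3 a4
      rw [a3, a4]
      refine ⟨by positivity, mul_le_mul_of_nonneg_left ?_ a2⟩
      exact pow_le_pow_left₀ (norm_nonneg _) a1 2
    have h4 : Integrable (fun x => φ x * ‖HO b x‖ ^ 2) m := by
      refine (int_of_mem h1).mono' (φ.aestronglyMeasurable.mul hm) ?_
      filter_upwards [h3] with x hx
      rw [Real.norm_eq_abs, abs_of_nonneg hx.1]
      exact hx.2
    exact ⟨h4, (integral_mono_ae h4 (int_of_mem h1) (by filter_upwards [h3] with x hx using hx.2)).trans h2⟩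
  · have h5 : sq m (HO b) ≤ ENNReal.ofReal (I (D ^ 2)) := by
      unfold sq I
      rw [ofReal_integral_eq_lintegral_ofReal (int_of_mem (mem_sq hD2))
        (nonneg_iff_ae.1 (sq_nonneg' D))]
      refine lintegral_mono_ae ?_
      filter_upwards [hn, sq_ae D] with x a1 a2
      rw [a2]
      exact ENNReal.ofReal_le_ofReal (pow_le_pow_left₀ (norm_nonneg _) a1 2)
    exact h5.trans (ENNReal.ofReal_le_ofReal hDt)

end test

end Vale.Agent.P233.H362
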