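import Vale.Agent.P233.H362.HopC

set_option linter.all false

/-!
# The Hessian operator of a function in the domain of the Laplacian
-/

open MeasureTheory Filter Topology
open scoped ENNReal NNReal InnerProductSpace

namespace Vale.Agent.P233.H362

variable {M : Type*} [MeasurableSpace M] {m : Measure M} {C : Calc m}
variable {E : Type*} [NormedAddCommGroup E] [InnerProductSpace ℝ E]

/-- convergence of test functions to `b ∈ D(Δ)`, `h = Δ b`, in the graph norm -/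
structure GC (C : Calc m) (c : ℕ → M →ₘ[m] ℝ) (b h : M →ₘ[m] ℝ) : Prop where
  test : ∀ n, c n ∈ C.Test
  W : Tendsto (fun n => C.nrm2 (c n - b)) atTop (𝓝 0)
  lap : Tendsto (fun n => I ((C.lap (c n) - h) ^ 2)) atTop (𝓝 0)

section graph

variable (hC : IsGamma C) {κ : ℝ} (hB : C.BEi κ)
variable {b h : M →ₘ[m] ℝ}
include hC hB

/-- test functions are dense in `D(Δ)` -/
theorem exists_GC [SigmaFinite m] (hb : C.IsLap b h) : ∃ c, GC C c b h := by
  have hD := hC.toIsDir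
  obtain ⟨N, hN⟩ := IsGamma.exists_small κ
  set lam : ℝ := ((N : ℝ) + 1)⁻¹ with hlam
  have hl : 0 < lam := by positivity
  have hl2 : 0 < 1 + 2 * lam * κ := hN N le_rfl
  have hb2 := hD.memLp b hb.1
  have hh2 : MemLp h 2 m := hb.2.1
  set f0 : M →ₘ[m] ℝ := b - lam • h with hf0
  have hf2 : MemLp f0 2 m := mem_sub hb2 (mem_smul _ hh2)
  have hJ0 : C.J lam f0 = b := by
    refine hD.J_eq hl ⟨hb.1, fun g hg => ?_⟩
    have h1 : f0 * g = b * g - lam • (h * g) := by rw [hf0]; algebra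
    have hg2 := hD.memLp g hg
    rw [h1, I_sub (mem_mul_22 hb2 hg2) (mem_smul _ (mem_mul_22 hh2 hg2)), I_smul]
    have h2 : I (C.Γ b g) = - I (h * g) := hb.2.2 g hg
    rw [h2]; ring
  have h1 : ∀ n : ℕ, ∃ f ∈ C.Test, I ((f - f0) ^ 2) < ((n : ℝ) + 1)⁻¹ := by
    intro n
    have hε : (0 : ℝ) < ((n : ℝ) + 1)⁻¹ / 4 := by positivity
    obtain ⟨g, hg, hg2⟩ := hD.dense_L2 f0 hf2 _ hε
    obtain ⟨t, ht, ht2⟩ := hC.test_dense hB hg hε
    have htW := hC.tW ht
    refine ⟨t, ht, ?_⟩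
    have h3 := I_sq_add_le (mem_sub (hD.memLp t htW) (hD.memLp g hg))
      (mem_sub (hD.memLp g hg) hf2)
    have e : t - g + (g - f0) = t - f0 := by abel
    have e2 : (f0 - g) ^ 2 = (g - f0) ^ 2 := by ring
    rw [e] at h3
    rw [e2] at hg2
    have h4 := hD.I_sq_le_nrm2 (hD.sub_mem htW hg)
    linarith
  choose f hf hf' using h1
  refine ⟨fun n => C.J lam (f n), fun n => hC.J_test hB hl hl2 (hC.test_A (hf n))
    (hC.test_Γ_top (hf n)), ?_, ?_⟩
  · have h2 : ∀ n, C.nrm2 (C.J lam (f n) - b) ≤ (1 + lam⁻¹) * ((n : ℝ) + 1)⁻¹ := by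
      intro n
      have hfn := hD.memLp _ (hC.tW (hf n))
      have hF := mem_sub hfn hf2
      have e : C.J lam (f n) - b = C.J lam (f n - f0) := by
        rw [hD.J_sub hl hfn hf2, hJ0]
      rw [e]
      have h3 := hD.J_contr hl hF
      have h4 := hD.J_sq_le hl hF
      have h5 := (hf' n).le
      have h6 : I (C.Γ (C.J lam (f n - f0)) (C.J lam (f n - f0))) ≤ lam⁻¹ * I ((f n - f0) ^ 2) := by
        have h7 := I_sq_nonneg (C.J lam (f n - f0))
        rw [inv_mul_eq_div, le_div_iff₀ hl]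
        linarith
      have h8 : lam⁻¹ * I ((f n - f0) ^ 2) ≤ lam⁻¹ * ((n : ℝ) + 1)⁻¹ :=
        mul_le_mul_of_nonneg_left h5 (by positivity)
      unfold Calc.nrm2
      linarith
    refine squeeze_zero (fun n => hD.nrm2_nonneg (hD.sub_mem (hD.J_mem hl
      (hD.memLp _ (hC.tW (hf n)))) hb.1)) h2 ?_
    simpa using tendsto_inv_succ.const_mul (1 + lam⁻¹)
  · have h2 : ∀ n, I ((C.lap (C.J lam (f n)) - h) ^ 2) ≤ (4 * lam⁻¹ ^ 2) * ((n : ℝ) + 1)⁻¹ := by
      intro n
      have hfn := hD.memLp _ (hC.tW (hf n))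
      have hF := mem_sub hfn hf2
      have e1 : C.lap (C.J lam (f n)) = lam⁻¹ • (C.J lam (f n) - f n) :=
        hD.lap_eq (hD.J_isLap hl hfn)
      have e2 : h = lam⁻¹ • (b - f0) := by
        rw [hf0, sub_sub_cancel, smul_smul, inv_mul_cancel₀ hl.ne', one_smul]
      have e3 : C.lap (C.J lam (f n)) - h = lam⁻¹ • (C.J lam (f n - f0) - (f n - f0)) := by
        rw [e1, hD.J_sub hl hfn hf2, hJ0]
        conv_lhs => rw [e2]
        rw [← smul_sub]
        congr 1
        abel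
      rw [e3]
      have e4 : (lam⁻¹ • (C.J lam (f n - f0) - (f n - f0))) ^ 2 =
          (lam⁻¹ ^ 2) • (C.J lam (f n - f0) - (f n - f0)) ^ 2 := by
        rw [smul_pow]
      rw [e4, I_smul]
      have h3 := I_sq_add_le (hD.J_mem2 hl hF) (mem_neg hF)
      rw [← sub_eq_add_neg, neg_sq] at h3
      have h4 := hD.J_sq_le hl hF
      have h5 := (hf' n).le
      have h6 : I ((C.J lam (f n - f0) - (f n - f0)) ^ 2) ≤ 4 * ((n : ℝ) + 1)⁻¹ := by linarith
      calc lam⁻¹ ^ 2 * I ((C.J lam (f n - f0) - (f n - f0)) ^ 2)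
          ≤ lam⁻¹ ^ 2 * (4 * ((n : ℝ) + 1)⁻¹) := mul_le_mul_of_nonneg_left h6 (by positivity)
        _ = _ := by ring
    refine squeeze_zero (fun n => I_sq_nonneg _) h2 ?_
    have h3 := tendsto_inv_succ.const_mul (4 * lam⁻¹ ^ 2)
    rw [mul_zero] at h3
    exact h3

/-- distance in the graph norm -/
theorem graph_dist {c d b h : M →ₘ[m] ℝ} (hc : c ∈ C.Test) (hd : d ∈ C.Test) (hb : C.IsLap b h) :
    I (C.lap ((-1 : ℝ) • d + c) ^ 2) - κ * I (C.Γ ((-1 : ℝ) • d + c) ((-1 : ℝ) • d + c)) ≤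
      (2 * I ((C.lap c - h) ^ 2) + 2 * |κ| * C.nrm2 (c - b)) +
      (2 * I ((C.lap d - h) ^ 2) + 2 * |κ| * C.nrm2 (d - b)) := by
  have hD := hC.toIsDir
  have e1 : C.lap ((-1 : ℝ) • d + c) = (-1 : ℝ) • C.lap d + C.lap c := by
    rw [hC.lap_add hB (hC.test_smul hB _ hd) hc, hC.lap_smul hB _ hd]
  have e2 : (-1 : ℝ) • d + c = (c - b) - (d - b) := by rw [neg_one_smul]; abel
  have e3 : (-1 : ℝ) • C.lap d + C.lap c = (C.lap c - h) + -(C.lap d - h) := by
    rw [neg_one_smul]; abel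
  have cW := hC.tW hc
  have dW := hC.tW hd
  have h1 := I_sq_add_le (mem_sub (hC.lap2 hc) hb.2.1) (mem_neg (mem_sub (hC.lap2 hd) hb.2.1))
  rw [neg_sq] at h1
  have h2 := hD.nrm2_sub_le (hD.sub_mem cW hb.1) (hD.sub_mem dW hb.1)
  have h3 := hD.E_le_nrm2 ((c - b) - (d - b))
  have h4 : 0 ≤ I (C.Γ ((c - b) - (d - b)) ((c - b) - (d - b))) :=
    hD.E_nonneg (hD.sub_mem (hD.sub_mem cW hb.1) (hD.sub_mem dW hb.1))
  rw [e1, e3, e2]
  have h5 : -(κ * I (C.Γ ((c - b) - (d - b)) ((c - b) - (d - b)))) ≤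
      |κ| * (2 * C.nrm2 (c - b) + 2 * C.nrm2 (d - b)) := by
    calc -(κ * I (C.Γ ((c - b) - (d - b)) ((c - b) - (d - b))))
        ≤ |κ| * I (C.Γ ((c - b) - (d - b)) ((c - b) - (d - b))) := by
          have := neg_abs_le κ
          nlinarith
      _ ≤ _ := mul_le_mul_of_nonneg_left (h3.trans h2) (abs_nonneg _)
  linarith

omit hC hB in
theorem GC.comp {c : ℕ → M →ₘ[m] ℝ} (h1 : GC C c b h) {ns : ℕ → ℕ} (hns : Tendsto ns atTop atTop) :
    GC C (fun n => c (ns n)) b h :=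
  ⟨fun n => h1.test _, h1.W.comp hns, h1.lap.comp hns⟩

omit hC hB in
theorem GC.delta {c : ℕ → M →ₘ[m] ℝ} (h1 : GC C c b h) (κ : ℝ) :
    Tendsto (fun n => 2 * I ((C.lap (c n) - h) ^ 2) + 2 * |κ| * C.nrm2 (c n - b)) atTop (𝓝 0) := by
  simpa using (h1.lap.const_mul 2).add (h1.W.const_mul (2 * |κ|))

theorem GC.const (hb : b ∈ C.Test) : GC C (fun _ => b) b (C.lap b) := by
  refine ⟨fun _ => hb, ?_, ?_⟩
  · have e : C.nrm2 (b - b) = 0 := by
      unfold Calc.nrm2
      rw [sub_self, hC.toIsDir.Γ_zero_left hC.zero_mem]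
      have : (0 : M →ₘ[m] ℝ) ^ 2 = 0 := by ring
      rw [this, I_zero, add_zero]
    simp only [e]; exact tendsto_const_nhds
  · have e : (C.lap b - C.lap b) ^ 2 = (0 : M →ₘ[m] ℝ) := by ring
    simp only [e, I_zero]; exact tendsto_const_nhds

theorem GC.lin {c d : ℕ → M →ₘ[m] ℝ} {b' h' : M →ₘ[m] ℝ} (t : ℝ) (h1 : GC C c b h)
    (h2 : GC C d b' h') (hb : C.IsLap b h) (hb' : C.IsLap b' h') :
    GC C (fun n => t • c n + d n) (t • b + b') (t • h + h') := by
  have hD := hC.toIsDir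
  refine ⟨fun n => hC.test_add hB (hC.test_smul hB t (h1.test n)) (h2.test n), ?_, ?_⟩
  · have k1 := fun n => hD.sub_mem (hC.tW (h1.test n)) hb.1
    have k2 := fun n => hD.sub_mem (hC.tW (h2.test n)) hb'.1
    refine squeeze_zero (fun n => hD.nrm2_nonneg (hD.sub_mem (hD.add_mem _ (hD.smul_mem t _
      (hC.tW (h1.test n))) _ (hC.tW (h2.test n))) (hD.add_mem _ (hD.smul_mem t _ hb.1) _ hb'.1)))
      (fun n => ?_) (by simpa using (h1.W.const_mul (2 * t ^ 2)).add (h2.W.const_mul 2))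
    have e : t • c n + d n - (t • b + b') = t • (c n - b) + (d n - b') := by
      rw [smul_sub]; abel
    rw [e]
    refine (hD.nrm2_add_le (hD.smul_mem t _ (k1 n)) (k2 n)).trans ?_
    have e2 : C.nrm2 (t • (c n - b)) = t ^ 2 * C.nrm2 (c n - b) := by
      unfold Calc.nrm2
      rw [hD.E_smul t (k1 n), smul_pow, I_smul]
      ring
    rw [e2]
    exact le_of_eq (by ring)
  · refine squeeze_zero (fun n => I_sq_nonneg _) (fun n => ?_)
      (by simpa using (h1.lap.const_mul (2 * t ^ 2)).add (h2.lap.const_mul 2))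
    have e : C.lap (t • c n + d n) - (t • h + h') = t • (C.lap (c n) - h) + (C.lap (d n) - h') := by
      rw [hC.lap_add hB (hC.test_smul hB _ (h1.test n)) (h2.test n), hC.lap_smul hB _ (h1.test n),
        smul_sub]
      abel
    rw [e]
    have k1 := mem_sub (hC.lap2 (h1.test n)) hb.2.1
    have k2 := mem_sub (hC.lap2 (h2.test n)) hb'.2.1
    refine (I_sq_add_le (mem_smul t k1) k2).trans ?_
    rw [smul_pow, I_smul]
    exact le_of_eq (by ring)

end graph

section ext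

variable {Gr : (M →ₘ[m] ℝ) → M → E} {HO : (M →ₘ[m] ℝ) → M → E →L[ℝ] E}
variable [SigmaFinite m] [MeasurableSpace.CountablyGenerated M] [CompleteSpace E]
  [SecondCountableTopology E]
variable (hC : IsGamma C) {κ : ℝ} (hB : C.BEi κ) (hG : IsGrad C Gr)
variable {b h : M →ₘ[m] ℝ}
include hC hB hG

theorem sq_diff (hH : IsHess C Gr HO) {c d b h : M →ₘ[m] ℝ} (hc : c ∈ C.Test) (hd : d ∈ C.Test)
    (hb : C.IsLap b h) :
    sq m (fun x => HO c x - HO d x) ≤ ENNReal.ofReal (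
      (2 * I ((C.lap c - h) ^ 2) + 2 * |κ| * C.nrm2 (c - b)) +
      (2 * I ((C.lap d - h) ^ 2) + 2 * |κ| * C.nrm2 (d - b))) := by
  have h1 : sq m (fun x => HO c x - HO d x) = sq m (HO ((-1 : ℝ) • d + c)) := by
    refine sq_congr ?_
    filter_upwards [hH.lin d hd c hc (-1)] with x hx
    rw [hx, neg_one_smul]; abel
  rw [h1]
  refine (norm_test hC hB hG hH (hC.test_add hB (hC.test_smul hB _ hd) hc)).2.trans ?_
  exact ENNReal.ofReal_le_ofReal (graph_dist hC hB hc hd hb)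

theorem exists_ext (hH : IsHess C Gr HO) (hb : C.IsLap b h) :
    ∃ T : M → E →L[ℝ] E, OM m T ∧ (∀ c, GC C c b h →
      Tendsto (fun n => sq m fun x => HO (c n) x - T x) atTop (𝓝 0)) ∧
      (b ∈ C.Test → T = HO b) := by
  by_cases hbT : b ∈ C.Test
  · refine ⟨HO b, hH.meas b hbT, fun c hc => ?_, fun _ => rfl⟩
    have hl : C.lap b = h := hC.toIsDir.lap_eq hb
    have e : 2 * I ((C.lap b - h) ^ 2) + 2 * |κ| * C.nrm2 (b - b) = 0 := by
      have e1 : C.nrm2 (b - b) = 0 := by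
        unfold Calc.nrm2
        rw [sub_self, hC.toIsDir.Γ_zero_left hC.zero_mem]
        have : (0 : M →ₘ[m] ℝ) ^ 2 = 0 := by ring
        rw [this, I_zero, add_zero]
      have e2 : (C.lap b - h) ^ 2 = (0 : M →ₘ[m] ℝ) := by rw [hl]; ring
      rw [e1, e2, I_zero]; ring
    have h1 := fun n => sq_diff hC hB hG hH (hc.test n) hbT hb
    simp only [e, add_zero] at h1
    refine tendsto_of_tendsto_of_tendsto_of_le_of_le tendsto_const_nhds ?_ (fun _ => zero_le) h1
    simpa using ENNReal.tendsto_ofReal (hc.delta κ)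
  · obtain ⟨c0, hc0⟩ := exists_GC hC hB hb
    have h1 : ∀ k : ℕ, ∃ n, 2 * I ((C.lap (c0 n) - h) ^ 2) + 2 * |κ| * C.nrm2 (c0 n - b) <
        (8 : ℝ)⁻¹ ^ k / 2 := fun k =>
      ((hc0.delta κ).eventually (gt_mem_nhds (show (0 : ℝ) < (8 : ℝ)⁻¹ ^ k / 2 by positivity))).exists
    choose ns hns using h1
    set c1 : ℕ → M →ₘ[m] ℝ := fun k => c0 (ns k) with hc1
    have hT : ∀ k, c1 k ∈ C.Test := fun k => hc0.test _
    have hcau : ∀ᵐ x ∂m, CauchySeq fun n => HO (c1 n) x := by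
      refine exists_lim (fun n => hH.meas _ (hT n)) fun n => ?_
      refine (sq_diff hC hB hG hH (hT n) (hT (n + 1)) hb).trans (ENNReal.ofReal_le_ofReal ?_)
      have h2 := (hns n).le
      have h3 := (hns (n + 1)).le
      have h4 : (8 : ℝ)⁻¹ ^ (n + 1) ≤ (8 : ℝ)⁻¹ ^ n := by
        rw [pow_succ]
        have : 0 < (8 : ℝ)⁻¹ ^ n := by positivity
        linarith
      simp only [hc1]
      linarith
    set T : M → E →L[ℝ] E := fun x => limUnder atTop fun n => HO (c1 n) x with hTd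
    have hlim : ∀ᵐ x ∂m, Tendsto (fun n => HO (c1 n) x) atTop (𝓝 (T x)) := by
      filter_upwards [hcau] with x hx
      exact hx.tendsto_limUnder
    have hOM : OM m T := OM.lim (fun n => hH.meas _ (hT n)) hlim
    refine ⟨T, hOM, fun c hc => ?_, fun h => absurd h hbT⟩
    have hδ1 : Tendsto (fun k => 2 * I ((C.lap (c1 k) - h) ^ 2) + 2 * |κ| * C.nrm2 (c1 k - b))
        atTop (𝓝 0) := by
      refine squeeze_zero (fun k => ?_) (fun k => (hns k).le) ?_
      · have e1 := I_sq_nonneg (C.lap (c0 (ns k)) - h)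
        have e2 := hC.toIsDir.nrm2_nonneg (hC.toIsDir.sub_mem (hC.tW (hc0.test (ns k))) hb.1)
        have e3 := abs_nonneg κ
        simp only [hc1]
        positivity
      · have := (tendsto_pow_atTop_nhds_zero_of_lt_one (show (0 : ℝ) ≤ (8 : ℝ)⁻¹ by norm_num)
          (by norm_num)).div_const 2
        simpa using this
    refine tendsto_of_tendsto_of_tendsto_of_le_of_le tendsto_const_nhds
      (h := fun n => ENNReal.ofReal (2 * I ((C.lap (c n) - h) ^ 2) + 2 * |κ| * C.nrm2 (c n - b)))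
      (by simpa using ENNReal.tendsto_ofReal (hc.delta κ)) (fun _ => zero_le) (fun n => ?_)
    refine le_of_forall_pos_le_add (α := ℝ≥0∞) fun δ hδ => ?_
    by_cases hδt : δ = ∞
    · rw [hδt]; simp
    refine sq_liminf (Tn := fun l x => HO (c n) x - HO (c1 l) x) (fun l =>
      OM.sub (T := HO (c n)) (S := HO (c1 l)) (hH.meas _ (hc.test n)) (hH.meas _ (hT l))) ?_ ?_
    · filter_upwards [hlim] with x hx
      exact hx.const_sub _
    · have hδr : 0 < δ.toReal := ENNReal.toReal_pos hδ.ne' hδt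
      filter_upwards [hδ1.eventually (gt_mem_nhds hδr)] with l hl
      refine (sq_diff hC hB hG hH (hc.test n) (hT l) hb).trans ?_
      refine ENNReal.ofReal_add_le.trans ?_
      gcongr
      rw [← ENNReal.ofReal_toReal hδt]
      exact ENNReal.ofReal_le_ofReal hl.le

end ext

end Vale.Agent.P233.H362
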