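import Vale.Agent.P233.H362.HopD

set_option linter.all false

/-!
# The Hessian operator on the domain of the Laplacian: properties
-/

open MeasureTheory Filter Topology
open scoped ENNReal NNReal InnerProductSpace

namespace Vale.Agent.P233.H362

variable {M : Type*} [MeasurableSpace M] {m : Measure M} {C : Calc m}
variable {E : Type*} [NormedAddCommGroup E] [InnerProductSpace ℝ E]

/-- A Hessian operator that is also defined on the domain of the Laplacian. -/
structure IsHessD (C : Calc m) (Gr : (M →ₘ[m] ℝ) → M → E) (HO : (M →ₘ[m] ℝ) → M → E →L[ℝ] E) :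
    Prop where
  hess : IsHess C Gr HO
  om : ∀ b h, C.IsLap b h → OM m (HO b)
  lim : ∀ b h, C.IsLap b h → ∀ c, GC C c b h →
    Tendsto (fun n => sq m fun x => HO (c n) x - HO b x) atTop (𝓝 0)

section

variable [CompleteSpace E] [SecondCountableTopology E]

theorem fast {D : ℕ → M → E →L[ℝ] E} (hD : ∀ n, OM m (D n))
    (h : ∀ n, sq m (D n) ≤ ENNReal.ofReal ((8 : ℝ)⁻¹ ^ n)) :
    ∀ᵐ x ∂m, Tendsto (fun n => D n x) atTop (𝓝 0) := by
  set g : ℕ → M → ℝ≥0∞ := fun n x => ENNReal.ofReal (4 ^ n) *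
    ENNReal.ofReal (‖D n x‖ ^ 2) with hg
  have hgm : ∀ n, AEMeasurable (g n) m := fun n =>
    (((hD n).norm.pow_const 2).ennreal_ofReal).const_mul _
  have h1 : ∀ n, ∫⁻ x, g n x ∂m ≤ ENNReal.ofReal ((2 : ℝ)⁻¹ ^ n) := by
    intro n
    rw [hg]
    simp only
    rw [lintegral_const_mul' _ _ (by simp)]
    refine (mul_le_mul_right (h n) _).trans ?_
    rw [← ENNReal.ofReal_mul (by positivity), ← mul_pow]
    norm_num
  have h2 : ∫⁻ x, ∑' n, g n x ∂m < ∞ := by
    rw [lintegral_tsum hgm]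
    refine lt_of_le_of_lt (ENNReal.tsum_le_tsum h1) ?_
    rw [← ENNReal.ofReal_tsum_of_nonneg (fun n => by positivity)
      (summable_geometric_of_lt_one (by norm_num) (by norm_num))]
    exact ENNReal.ofReal_lt_top
  have h3 := ae_lt_top' (AEMeasurable.ennreal_tsum hgm) h2.ne
  filter_upwards [h3] with x hx
  set S := (∑' n, g n x).toReal with hS
  have h4 : ∀ n, (4 : ℝ) ^ n * ‖D n x‖ ^ 2 ≤ S := by
    intro n
    have h5 : g n x ≤ ∑' n, g n x := ENNReal.le_tsum n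
    have h6 := ENNReal.toReal_mono hx.ne h5
    rw [hg] at h6
    simp only at h6
    rw [← ENNReal.ofReal_mul (by positivity), ENNReal.toReal_ofReal (by positivity)] at h6
    exact h6
  have hS0 : 0 ≤ S := ENNReal.toReal_nonneg
  have h8 : ∀ n, ‖D n x‖ ≤ √S * (2 : ℝ)⁻¹ ^ n := by
    intro n
    have h5 := h4 n
    have h6 : (2 ^ n * ‖D n x‖) ^ 2 ≤ S := by
      calc (2 ^ n * ‖D n x‖) ^ 2 = (4 : ℝ) ^ n * ‖D n x‖ ^ 2 := by
            rw [mul_pow, ← pow_mul, mul_comm n 2, pow_mul]; norm_num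
        _ ≤ S := h5
    have h7 : 2 ^ n * ‖D n x‖ ≤ √S := Real.le_sqrt_of_sq_le h6
    rw [inv_pow, ← div_eq_mul_inv, le_div_iff₀ (by positivity)]
    linarith
  rw [tendsto_zero_iff_norm_tendsto_zero]
  refine squeeze_zero (fun n => norm_nonneg _) h8 ?_
  simpa using (tendsto_pow_atTop_nhds_zero_of_lt_one (show (0 : ℝ) ≤ (2 : ℝ)⁻¹ by norm_num)
    (by norm_num)).const_mul (√S)

theorem exists_subseq_sq {Tn : ℕ → M → E →L[ℝ] E} {T : M → E →L[ℝ] E} (hT : ∀ n, OM m (Tn n))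
    (hT0 : OM m T) (h : Tendsto (fun n => sq m fun x => Tn n x - T x) atTop (𝓝 0)) :
    ∃ ns : ℕ → ℕ, Tendsto ns atTop atTop ∧
      ∀ᵐ x ∂m, Tendsto (fun k => Tn (ns k) x) atTop (𝓝 (T x)) := by
  have h1 : ∀ k : ℕ, ∃ n, k ≤ n ∧ sq m (fun x => Tn n x - T x) ≤ ENNReal.ofReal ((8 : ℝ)⁻¹ ^ k) := by
    intro k
    have hpos : (0 : ℝ≥0∞) < ENNReal.ofReal ((8 : ℝ)⁻¹ ^ k) := by
      rw [ENNReal.ofReal_pos]; positivity
    obtain ⟨n, hn1, hn2⟩ := ((eventually_ge_atTop k).and (h.eventually (gt_mem_nhds hpos))).exists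
    exact ⟨n, hn1, hn2.le⟩
  choose ns hns1 hns2 using h1
  refine ⟨ns, tendsto_atTop_mono hns1 tendsto_id, ?_⟩
  filter_upwards [fast (fun k => (hT (ns k)).sub hT0) hns2] with x hx
  have := hx.add_const (T x)
  simpa using this

theorem sq_tendsto {Tn : ℕ → M → E →L[ℝ] E} {T : M → E →L[ℝ] E} (hT : ∀ n, OM m (Tn n))
    (hT0 : OM m T) (h : Tendsto (fun n => sq m fun x => Tn n x - T x) atTop (𝓝 0)) {c : ℝ≥0∞}
    {d : ℕ → ℝ≥0∞} (hd : ∀ n, sq m (Tn n) ≤ d n) (hc : Tendsto d atTop (𝓝 c)) : sq m T ≤ c := by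
  obtain ⟨ns, hns, hlim⟩ := exists_subseq_sq hT hT0 h
  refine le_of_forall_gt_imp_ge_of_dense fun c' hc' => ?_
  refine sq_liminf (fun k => hT (ns k)) hlim ?_
  filter_upwards [(hc.comp hns).eventually (gt_mem_nhds hc')] with k hk
  exact (hd _).trans hk.le

end

variable {Gr : (M →ₘ[m] ℝ) → M → E} {HO : (M →ₘ[m] ℝ) → M → E →L[ℝ] E}
variable [SigmaFinite m] [MeasurableSpace.CountablyGenerated M] [CompleteSpace E]
  [SecondCountableTopology E]
variable (hC : IsGamma C) {κ : ℝ} (hB : C.BEi κ) (hG : IsGrad C Gr)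
include hC hB hG

/-- **Extension of the Hessian operator to the domain of the Laplacian.** -/
theorem exists_hessD (hH : IsHess C Gr HO) :
    ∃ HX : (M →ₘ[m] ℝ) → M → E →L[ℝ] E, IsHessD C Gr HX ∧ ∀ b ∈ C.Test, HX b = HO b := by
  classical
  have h : ∀ b, (∃ h, C.IsLap b h) → ∃ T : M → E →L[ℝ] E, OM m T ∧ (∀ h, C.IsLap b h → ∀ c,
      GC C c b h → Tendsto (fun n => sq m fun x => HO (c n) x - T x) atTop (𝓝 0)) ∧
      (b ∈ C.Test → T = HO b) := by
    rintro b ⟨h, hb⟩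
    obtain ⟨T, h1, h2, h3⟩ := exists_ext hC hB hG hH hb
    refine ⟨T, h1, fun h' hb' c hc => ?_, h3⟩
    obtain rfl : h = h' := hC.toIsDir.isLap_unique hb hb'
    exact h2 c hc
  choose! T hT1 hT2 hT3 using h
  set HX : (M →ₘ[m] ℝ) → M → E →L[ℝ] E := fun b => if b ∈ C.Test then HO b else T b with hHX
  have hX : ∀ b ∈ C.Test, HX b = HO b := fun b hb => by simp only [hHX, if_pos hb]
  have hX' : ∀ b h, C.IsLap b h → HX b = T b := fun b h hb => by
    by_cases hb' : b ∈ C.Test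
    · rw [hX b hb', hT3 b ⟨h, hb⟩ hb']
    · simp only [hHX, if_neg hb']
  refine ⟨HX, ⟨⟨?_, ?_, ?_, ?_, ?_, ?_, ?_⟩, ?_, ?_⟩, hX⟩
  · intro b hb; rw [hX b hb]; exact hH.meas b hb
  · obtain ⟨c, hc⟩ := hH.norm
    refine ⟨c, fun b hb => ?_⟩
    rw [hX b hb]; exact hc b hb
  · intro b hb; rw [hX b hb]; exact hH.symm b hb
  · intro b hb; rw [hX b hb]; exact hH.grad b hb
  · intro b hb b' hb' t
    rw [hX b hb, hX b' hb', hX _ (hC.test_add hB (hC.test_smul hB t hb) hb')]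
    exact hH.lin b hb b' hb' t
  · intro f hf g hg
    rw [hX f hf, hX g hg]; exact hH.prod f hf g hg
  · intro e he hd b hb
    rw [hX b hb]; exact hH.range e he hd b hb
  · intro b h hb; rw [hX' b h hb]; exact hT1 b ⟨h, hb⟩
  · intro b h hb c hc
    rw [hX' b h hb]
    simp only [hX _ (hc.test _)]
    exact hT2 b ⟨h, hb⟩ h hb c hc

section props

variable (hH : IsHessD C Gr HO) {b b' h h' : M →ₘ[m] ℝ}
include hH

omit [SigmaFinite m] [MeasurableSpace.CountablyGenerated M] hC hB hG in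
theorem IsHessD.omT {b : M →ₘ[m] ℝ} (hb : b ∈ C.Test) : OM m (HO b) := hH.hess.meas b hb

omit [MeasurableSpace.CountablyGenerated M] hG in
theorem exists_fast (hb : C.IsLap b h) : ∃ c, GC C c b h ∧
    ∀ᵐ x ∂m, Tendsto (fun k => HO (c k) x) atTop (𝓝 (HO b x)) := by
  obtain ⟨c, hc⟩ := exists_GC hC hB hb
  obtain ⟨ns, hns, hlim⟩ := exists_subseq_sq (fun n => hH.hess.meas _ (hc.test n)) (hH.om b h hb)
    (hH.lim b h hb c hc)
  exact ⟨fun k => c (ns k), hc.comp hns, hlim⟩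

/-- the norm -/
theorem sq_le (hb : C.IsLap b h) :
    sq m (HO b) ≤ ENNReal.ofReal (I (h ^ 2) - κ * I (C.Γ b b)) := by
  obtain ⟨c, hc, -⟩ := exists_fast hC hB hH hb
  have h1 : Tendsto (fun n => I (C.lap (c n) ^ 2)) atTop (𝓝 (I (h ^ 2))) := by
    have h0 : T2 (fun n => C.lap (c n)) h := ⟨fun n => hC.lap2 (hc.test n), hb.2.1, hc.lap⟩
    simpa only [pow_two] using h0.mul_lim h0
  have h2 : Tendsto (fun n => I (C.Γ (c n) (c n))) atTop (𝓝 (I (C.Γ b b))) := by
    have h0 : C.TW c b := ⟨fun n => hC.tW (hc.test n), hb.1, hc.W⟩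
    simpa only [one_mul] using hC.toIsDir.TW_Γ (Tb.const (mem_top_one (m := m))) h0 h0
  refine sq_tendsto (fun n => hH.hess.meas _ (hc.test n)) (hH.om b h hb) (hH.lim b h hb c hc)
    (fun n => (norm_test hC hB hG hH.hess (hc.test n)).2) ?_
  exact ENNReal.tendsto_ofReal (h1.sub (h2.const_mul κ))

/-- the norm is in `L²` -/
theorem memLp_norm (hb : C.IsLap b h) : MemLp (fun x => ‖HO b x‖) 2 m ∧
    ∫ x, ‖HO b x‖ ^ 2 ∂m ≤ I (h ^ 2) - κ * I (C.Γ b b) := by
  have h1 := sq_le hC hB hG hH hb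
  obtain ⟨h2, h3⟩ := sq_eq (hH.om b h hb) (ne_top_of_le_ne_top ENNReal.ofReal_ne_top h1)
  refine ⟨h2, ?_⟩
  rw [h3]
  have h4 : 0 ≤ I (h ^ 2) - κ * I (C.Γ b b) := by
    obtain ⟨c, hc, -⟩ := exists_fast hC hB hH hb
    have k1 : Tendsto (fun n => I (C.lap (c n) ^ 2)) atTop (𝓝 (I (h ^ 2))) := by
      have h0 : T2 (fun n => C.lap (c n)) h := ⟨fun n => hC.lap2 (hc.test n), hb.2.1, hc.lap⟩
      simpa only [pow_two] using h0.mul_lim h0
    have k2 : Tendsto (fun n => I (C.Γ (c n) (c n))) atTop (𝓝 (I (C.Γ b b))) := by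
      have h0 : C.TW c b := ⟨fun n => hC.tW (hc.test n), hb.1, hc.W⟩
      simpa only [one_mul] using hC.toIsDir.TW_Γ (Tb.const (mem_top_one (m := m))) h0 h0
    exact ge_of_tendsto (k1.sub (k2.const_mul κ)) (Eventually.of_forall fun n =>
      hC.h2_nonneg hB (hc.test n))
  exact (ENNReal.toReal_mono ENNReal.ofReal_ne_top h1).trans_eq (ENNReal.toReal_ofReal h4)

omit [MeasurableSpace.CountablyGenerated M] hG in
theorem symmD (hb : C.IsLap b h) : ∀ᵐ x ∂m, ∀ v w : E, ⟪HO b x v, w⟫_ℝ = ⟪v, HO b x w⟫_ℝ := by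
  obtain ⟨c, hc, hlim⟩ := exists_fast hC hB hH hb
  filter_upwards [hlim, ae_all_iff.2 fun n => hH.hess.symm _ (hc.test n)] with x h1 h2 v w
  have h3 : Tendsto (fun n => HO (c n) x v) atTop (𝓝 (HO b x v)) :=
    ((ContinuousLinearMap.apply ℝ E v).continuous.tendsto _).comp h1
  have h4 : Tendsto (fun n => HO (c n) x w) atTop (𝓝 (HO b x w)) :=
    ((ContinuousLinearMap.apply ℝ E w).continuous.tendsto _).comp h1
  have h5 : Tendsto (fun n => ⟪HO (c n) x v, w⟫_ℝ) atTop (𝓝 ⟪HO b x v, w⟫_ℝ) :=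
    h3.inner tendsto_const_nhds
  have h6 : Tendsto (fun n => ⟪v, HO (c n) x w⟫_ℝ) atTop (𝓝 ⟪v, HO b x w⟫_ℝ) :=
    tendsto_const_nhds.inner h4
  simp only [h2] at h5
  exact tendsto_nhds_unique h5 h6

omit hG in
/-- the Hessian operator is the operator with the values `HO b x (Gr (e n) x)` on the gradients of
a dense family, extended by `0` to the orthogonal complement; its range is in the tangent space -/
theorem isOpD (hb : C.IsLap b h) {e : ℕ → M →ₘ[m] ℝ} (he : DenseT C e) :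
    ∀ᵐ x ∂m, IsOp (fun n => Gr (e n) x) (fun n => HO b x (Gr (e n) x)) (HO b x) ∧
      ∀ v : E, HO b x v ∈ Sp fun n => Gr (e n) x := by
  obtain ⟨c, hc, hlim⟩ := exists_fast hC hB hH hb
  filter_upwards [hlim, ae_all_iff.2 fun n => range_mem hC hH.hess he (hc.test n),
    ae_all_iff.2 fun n => isOp hC hH.hess he (hc.test n)] with x h1 h2 h3
  have h4 : ∀ v, Tendsto (fun n => HO (c n) x v) atTop (𝓝 (HO b x v)) := fun v =>
    ((ContinuousLinearMap.apply ℝ E v).continuous.tendsto _).comp h1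
  refine ⟨⟨fun n => rfl, fun v hv => ?_⟩, fun v => ?_⟩
  · have h5 := h4 v
    simp only [(h3 _).ker v hv] at h5
    exact tendsto_nhds_unique h5 tendsto_const_nhds
  · exact (Sp_isClosed _).mem_of_tendsto (h4 v) (Eventually.of_forall fun n => h2 n v)

omit [MeasurableSpace.CountablyGenerated M] hG in
theorem linD (t : ℝ) (hb : C.IsLap b h) (hb' : C.IsLap b' h') :
    ∀ᵐ x ∂m, HO (t • b + b') x = t • HO b x + HO b' x := by
  obtain ⟨c, hc⟩ := exists_GC hC hB hb
  obtain ⟨d, hd⟩ := exists_GC hC hB hb'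
  have hs : C.IsLap (t • b + b') (t • h + h') :=
    hC.toIsDir.isLap_add (hC.toIsDir.isLap_smul t hb) hb'
  have hcd := hc.lin hC hB t hd hb hb'
  have o1 := hH.om b h hb
  have o2 := hH.om b' h' hb'
  have o3 := hH.om _ _ hs
  have oc := fun n => hH.hess.meas _ (hc.test n)
  have od := fun n => hH.hess.meas _ (hd.test n)
  have ocd := fun n => hH.hess.meas _ (hcd.test n)
  have l1 := hH.lim b h hb c hc
  have l2 := hH.lim b' h' hb' d hd
  have l3 := hH.lim _ _ hs _ hcd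
  refine eq_of_sq o3 ((OM.smul t o1).add o2) ?_
  have key : ∀ n, sq m (fun x => HO (t • b + b') x - (t • HO b x + HO b' x)) ≤
      2 * sq m (fun x => HO (t • c n + d n) x - HO (t • b + b') x) +
      2 * (2 * (ENNReal.ofReal (t ^ 2) * sq m (fun x => HO (c n) x - HO b x)) +
        2 * sq m (fun x => HO (d n) x - HO b' x)) := by
    intro n
    have e1 : sq m (fun x => HO (t • b + b') x - (t • HO b x + HO b' x)) =
        sq m (fun x => (HO (t • b + b') x - HO (t • c n + d n) x) +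
          (t • (HO (c n) x - HO b x) + (HO (d n) x - HO b' x))) := by
      refine sq_congr ?_
      filter_upwards [hH.hess.lin _ (hc.test n) _ (hd.test n) t] with x hx
      rw [hx, smul_sub]; abel
    rw [e1]
    refine (sq_add_le (o3.sub (ocd n)) ((OM.smul t (OM.sub (T := HO (c n)) (S := HO b) (oc n)
      o1)).add (OM.sub (T := HO (d n)) (S := HO b') (od n) o2))).trans ?_
    rw [sq_sub_comm (HO (t • b + b')) (HO (t • c n + d n))]
    gcongr
    refine (sq_add_le (OM.smul t (OM.sub (T := HO (c n)) (S := HO b) (oc n) o1))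
      (OM.sub (T := HO (d n)) (S := HO b') (od n) o2)).trans ?_
    rw [sq_smul]
  have hlim : Tendsto (fun n => 2 * sq m (fun x => HO (t • c n + d n) x - HO (t • b + b') x) +
      2 * (2 * (ENNReal.ofReal (t ^ 2) * sq m (fun x => HO (c n) x - HO b x)) +
        2 * sq m (fun x => HO (d n) x - HO b' x))) atTop (𝓝 0) := by
    have k1 := ENNReal.Tendsto.const_mul (a := 2) l3 (Or.inr (by simp))
    have k2 := ENNReal.Tendsto.const_mul (a := 2) (ENNReal.Tendsto.const_mul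
      (a := ENNReal.ofReal (t ^ 2)) l1 (Or.inr (by simp))) (Or.inr (by simp))
    have k3 := ENNReal.Tendsto.const_mul (a := 2) l2 (Or.inr (by simp))
    have k4 := k1.add (ENNReal.Tendsto.const_mul (a := 2) (k2.add k3) (Or.inr (by simp)))
    simpa using k4
  exact le_antisymm (ge_of_tendsto' hlim key) (zero_le)

/-- continuity -/
theorem sq_sub_le (hb : C.IsLap b h) (hb' : C.IsLap b' h') :
    sq m (fun x => HO b x - HO b' x) ≤
      ENNReal.ofReal (I ((h - h') ^ 2) - κ * I (C.Γ (b - b') (b - b'))) := by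
  have hs : C.IsLap ((-1 : ℝ) • b' + b) ((-1 : ℝ) • h' + h) :=
    hC.toIsDir.isLap_add (hC.toIsDir.isLap_smul _ hb') hb
  have e1 : (-1 : ℝ) • b' + b = b - b' := by rw [neg_one_smul]; abel
  have e2 : (-1 : ℝ) • h' + h = h - h' := by rw [neg_one_smul]; abel
  have h1 : sq m (fun x => HO b x - HO b' x) = sq m (HO ((-1 : ℝ) • b' + b)) := by
    refine sq_congr ?_
    filter_upwards [linD hC hB hH (-1) hb' hb] with x hx
    rw [hx, neg_one_smul]; abel
  rw [h1]
  have h2 := sq_le hC hB hG hH hs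
  rw [e1, e2] at h2
  rw [e1]
  exact h2

end props

end Vale.Agent.P233.H362
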